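import Vale.Agent.P178.H815.Ring

/-!
# The units of the counterexample and their logarithmic derivatives
-/

open TrivSqZeroExt

namespace Vale.Agent.P178.H815

/-- `𝔽_p ⊕ 𝔽_p^3`, the second summand of square zero -/
abbrev TT (p : ℕ) : Type := TrivSqZeroExt (ZMod p) (Fin 3 → ZMod p)

/-- the basis `ε_0, ε_1, ε_2` -/
noncomputable def eps (p : ℕ) (i : Fin 3) : TT p := inr (Pi.single i 1)

theorem eps_mul (p : ℕ) (i k : Fin 3) : eps p i * eps p k = 0 := inr_mul_inr _ _ _

theorem fst_eps (p : ℕ) (i : Fin 3) : (eps p i).fst = 0 := rfl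

theorem one_add_eps_pow (p : ℕ) (i : Fin 3) (n : ℕ) :
    (1 + eps p i) ^ n = 1 + (n : TT p) * eps p i := by
  induction n with
  | zero => simp
  | succ n ih =>
    rw [pow_succ, ih, Nat.cast_succ]
    linear_combination (n : TT p) * eps_mul p i i

theorem natCast_TT (p : ℕ) : ((p : ℕ) : TT p) = 0 := by
  have h := map_natCast (TrivSqZeroExt.inlHom (ZMod p) (Fin 3 → ZMod p)) p
  rw [ZMod.natCast_self, map_zero] at h
  exact h.symm

theorem sum_range_cast {S : Type*} [CommRing S] {p : ℕ} (hS : ((p : ℕ) : S) = 0) (hp : p ≠ 2)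
    (hp' : p.Prime) : (∑ i ∈ Finset.range p, (i : S)) = 0 := by
  rw [← Nat.cast_sum, Finset.sum_range_id]
  obtain ⟨k, hk⟩ := hp'.odd_of_ne_two hp
  have : p * (p - 1) / 2 = p * k := by
    subst hk
    rw [Nat.add_sub_cancel, show (2 * k + 1) * (2 * k) = ((2 * k + 1) * k) * 2 by ring,
      Nat.mul_div_cancel _ (by norm_num)]
  rw [this, Nat.cast_mul, hS, zero_mul]

section

variable (p : ℕ) [Fact p.Prime]

theorem sum_TT (hp : p ≠ 2) : ∑ i ∈ Finset.range p, (1 + eps p 2) ^ i = 0 := by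
  simp only [one_add_eps_pow, Finset.sum_add_distrib, ← Finset.sum_mul]
  rw [sum_range_cast (natCast_TT p) hp Fact.out]
  simp [natCast_TT]

/-- the homomorphism `A → 𝔽_p ⊕ 𝔽_p^3` with `x ↦ ε_0`, `c ↦ ε_1`, `j ↦ 1 + ε_2` -/
noncomputable def piA (hp : p ≠ 2) : AA p →+* TT p :=
  evA p (eps p 0) (eps p 1) (1 + eps p 2) (by rw [eps_mul, sum_TT p hp]) (fun g hg => by
    rw [isUnit_iff_isUnit_fst]
    have h := apply_ev (TrivSqZeroExt.fstHom (ZMod p) (ZMod p) (Fin 3 → ZMod p)).toRingHom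
      (eps p 0) (eps p 1) (1 + eps p 2) g
    have h1 : (TrivSqZeroExt.fstHom (ZMod p) (ZMod p) (Fin 3 → ZMod p)).toRingHom (eps p 0) = 0 :=
      rfl
    have h2 : (TrivSqZeroExt.fstHom (ZMod p) (ZMod p) (Fin 3 → ZMod p)).toRingHom (eps p 1) = 0 :=
      rfl
    have h3 : (TrivSqZeroExt.fstHom (ZMod p) (ZMod p) (Fin 3 → ZMod p)).toRingHom
        (1 + eps p 2) = 1 := by
      rw [map_add, map_one]
      exact add_zero _
    rw [h1, h2, h3] at h
    change IsUnit ((TrivSqZeroExt.fstHom (ZMod p) (ZMod p) (Fin 3 → ZMod p)).toRingHom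
      (ev (eps p 0) (eps p 1) (1 + eps p 2) g))
    rw [h]
    exact isUnit_iff_ne_zero.2 hg)

@[simp] theorem piA_x (hp : p ≠ 2) : piA p hp (xA p) = eps p 0 := by
  rw [piA, xA, evA_toA, ev_x]
@[simp] theorem piA_c (hp : p ≠ 2) : piA p hp (cA p) = eps p 1 := by
  rw [piA, cA, evA_toA, ev_c]
@[simp] theorem piA_j (hp : p ≠ 2) : piA p hp (jA p) = 1 + eps p 2 := by
  rw [piA, jA, evA_toA, ev_j]

theorem isUnit_toA {g : BB} (hg : ev (0 : ZMod p) 0 1 g ≠ 0) : IsUnit (toA p g) :=
  IsLocalization.map_units (AA p) (⟨Ideal.Quotient.mk _ g, hg⟩ : (mQ p).primeCompl)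

theorem toA_mem {g : BB} (hg : ev (0 : ZMod p) 0 1 g = 0) :
    toA p g ∈ IsLocalRing.maximalIdeal (AA p) := by
  rw [maximalIdeal_eq]
  exact mem_span_three p hg

theorem isUnit_t : IsUnit (1 + xA p * (1 - jA p)) := by
  have h : 1 + xA p * (1 - jA p) = toA p (1 + xB * (1 - jB)) := by
    rw [map_add, map_mul, map_sub, map_one]; rfl
  rw [h]
  refine isUnit_toA p ?_
  simp

theorem isUnit_j : IsUnit (jA p) := isUnit_toA p (by simp)

theorem isUnit_one_add_c : IsUnit (1 + cA p) := by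
  have h : 1 + cA p = toA p (1 + cB) := by
    rw [map_add, map_one]; rfl
  rw [h]
  refine isUnit_toA p ?_
  simp

theorem isUnit_N : IsUnit (xA p + ∑ i ∈ Finset.range (p - 1), jA p ^ i) := by
  have h : xA p + ∑ i ∈ Finset.range (p - 1), jA p ^ i =
      toA p (xB + ∑ i ∈ Finset.range (p - 1), jB ^ i) := by
    simp only [map_add, map_sum, map_pow]; rfl
  rw [h]
  refine isUnit_toA p ?_
  simp only [map_add, map_sum, map_pow, ev_x, ev_j, one_pow, zero_add, Finset.sum_const,
    Finset.card_range, nsmul_eq_mul, mul_one]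
  rw [Nat.cast_sub (Fact.out : p.Prime).one_le, ZMod.natCast_self]
  simp

/-- `t = 1 + x y`, `y = 1 - j` -/
noncomputable def tU : (AA p)ˣ := (isUnit_t p).unit
/-- `j` -/
noncomputable def jU : (AA p)ˣ := (isUnit_j p).unit
/-- `u_1 = (x + 1 + j + ... + j^(p-2)) / t` -/
noncomputable def u1 : (AA p)ˣ := (isUnit_N p).unit * (tU p)⁻¹
/-- `u_2 = j^(p-1) / t` -/
noncomputable def u2 : (AA p)ˣ := jU p ^ (p - 1) * (tU p)⁻¹
/-- `e = (1 + c) / t` -/
noncomputable def eU : (AA p)ˣ := (isUnit_one_add_c p).unit * (tU p)⁻¹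
/-- `u_3 = - e` -/
noncomputable def u3 : (AA p)ˣ := -eU p

theorem tU_val : (tU p : AA p) = 1 + xA p * (1 - jA p) := rfl
theorem jU_val : (jU p : AA p) = jA p := rfl
theorem u1_mul_t : (u1 p : AA p) * tU p = xA p + ∑ i ∈ Finset.range (p - 1), jA p ^ i := by
  rw [u1, Units.val_mul, Units.inv_mul_cancel_right]; rfl
theorem u2_mul_t : (u2 p : AA p) * tU p = jA p ^ (p - 1) := by
  rw [u2, Units.val_mul, Units.inv_mul_cancel_right]; rfl
theorem e_mul_t : (eU p : AA p) * tU p = 1 + cA p := by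
  rw [eU, Units.val_mul, Units.inv_mul_cancel_right]; rfl

/-- `y u_1 + u_2 = 1` -/
theorem rel_one : (1 - jA p) * u1 p + u2 p = 1 := by
  have ht := (tU p).isUnit
  refine ht.mul_right_cancel ?_
  rw [add_mul, mul_assoc, u1_mul_t, u2_mul_t, one_mul, tU_val]
  have h := mul_neg_geom_sum (jA p) (p - 1)
  linear_combination h

/-- `x y e + j^p / t = 1` -/
theorem rel_two : xA p * (1 - jA p) * eU p + jA p ^ p * ((tU p)⁻¹ : (AA p)ˣ) = 1 := by
  have ht := (tU p).isUnit
  refine ht.mul_right_cancel ?_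
  rw [add_mul, mul_assoc, e_mul_t, Units.inv_mul_cancel_right, one_mul, tU_val]
  have h := mul_neg_geom_sum (jA p) p
  rw [← xc] at h
  linear_combination h

theorem xA_ne_zero (hp : p ≠ 2) : xA p ≠ 0 := by
  intro h
  have := congrArg (piA p hp) h
  rw [piA_x, map_zero] at this
  have := congrFun (congrArg TrivSqZeroExt.snd this) 0
  simp [eps] at this

theorem one_sub_j_ne_zero (hp : p ≠ 2) : 1 - jA p ≠ 0 := by
  intro h
  have := congrArg (piA p hp) h
  rw [map_sub, map_one, piA_j, map_zero] at this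
  have := congrFun (congrArg TrivSqZeroExt.snd this) 2
  simp [eps] at this

theorem piA_t (hp : p ≠ 2) : piA p hp (tU p) = 1 := by
  rw [tU_val]
  simp only [map_add, map_mul, map_sub, map_one, piA_x, piA_j]
  linear_combination -eps_mul p 0 2

theorem piA_t_inv (hp : p ≠ 2) : piA p hp ((tU p)⁻¹ : (AA p)ˣ) = 1 := by
  have h := congrArg (piA p hp) (tU p).mul_inv
  rwa [map_mul, piA_t, one_mul, map_one] at h

theorem piA_u1 (hp : p ≠ 2) : piA p hp (u1 p) = -1 + eps p 0 + eps p 2 := by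
  have h := congrArg (piA p hp) (u1_mul_t p)
  rw [map_mul, piA_t, mul_one] at h
  rw [h]
  simp only [map_add, map_sum, map_pow, piA_x, piA_j]
  have hs := sum_TT p hp
  obtain ⟨k, hk⟩ : ∃ k, p = k + 1 := ⟨p - 1, by have := (Fact.out : p.Prime).pos; omega⟩
  have hk' : p - 1 = k := by omega
  have h2 : ∑ i ∈ Finset.range p, (1 + eps p 2) ^ i =
      ∑ i ∈ Finset.range k, (1 + eps p 2) ^ i + (1 + eps p 2) ^ k := by
    conv_lhs => rw [show Finset.range p = Finset.range (k + 1) by rw [← hk]]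
    rw [Finset.sum_range_succ]
  rw [h2, one_add_eps_pow] at hs
  have h3 : (k : TT p) = -1 := by
    have := natCast_TT p
    have h4 : ((k + 1 : ℕ) : TT p) = 0 := by rw [← hk]; exact this
    rw [Nat.cast_add, Nat.cast_one] at h4
    linear_combination h4
  rw [h3] at hs
  rw [hk']
  linear_combination hs

theorem piA_u2 (hp : p ≠ 2) : piA p hp (u2 p) = 1 - eps p 2 := by
  have h := congrArg (piA p hp) (u2_mul_t p)
  rw [map_mul, piA_t, mul_one] at h
  rw [h, map_pow, piA_j, one_add_eps_pow, Nat.cast_sub (Fact.out : p.Prime).one_le, natCast_TT]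
  push_cast
  ring

theorem piA_u3 (hp : p ≠ 2) : piA p hp (u3 p) = -(1 + eps p 1) := by
  have h := congrArg (piA p hp) (e_mul_t p)
  rw [map_mul, piA_t, mul_one, map_add, map_one, piA_c] at h
  rw [u3, Units.val_neg, map_neg, h]

/-- the residue characteristic is `p`, and `A` is ramified: `p ∈ 𝔪^2` -/
theorem p_mem_sq (hp : p ≠ 2) : ((p : ℕ) : AA p) ∈ IsLocalRing.maximalIdeal (AA p) ^ 2 := by
  have hx : xA p ∈ IsLocalRing.maximalIdeal (AA p) := toA_mem p (by simp)
  have hc : cA p ∈ IsLocalRing.maximalIdeal (AA p) := toA_mem p (by simp)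
  have hj : jA p - 1 ∈ IsLocalRing.maximalIdeal (AA p) := by
    have : jA p - 1 = toA p (jB - 1) := by rw [map_sub, map_one]; rfl
    rw [this]; exact toA_mem p (by simp)
  have hS : ∑ i ∈ Finset.range p, ∑ k ∈ Finset.range i, jA p ^ k ∈
      IsLocalRing.maximalIdeal (AA p) := by
    have : ∑ i ∈ Finset.range p, ∑ k ∈ Finset.range i, jA p ^ k =
        toA p (∑ i ∈ Finset.range p, ∑ k ∈ Finset.range i, jB ^ k) := by
      simp only [map_sum, map_pow]; rfl
    rw [this]
    refine toA_mem p ?_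
    simp only [map_sum, map_pow, ev_j, one_pow, Finset.sum_const, Finset.card_range, nsmul_eq_mul,
      mul_one]
    exact sum_range_cast (ZMod.natCast_self p) hp Fact.out
  have h : ((p : ℕ) : AA p) = xA p * cA p -
      (jA p - 1) * ∑ i ∈ Finset.range p, ∑ k ∈ Finset.range i, jA p ^ k := by
    rw [xc, Finset.mul_sum]
    simp only [mul_geom_sum]
    rw [Finset.sum_sub_distrib]
    simp
  rw [h, pow_two]
  exact Ideal.sub_mem _ (Ideal.mul_mem_mul hx hc) (Ideal.mul_mem_mul hj hS)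

theorem charZero_AA : CharZero (AA p) := by
  have hinj : Function.Injective (algebraMap (QQ p) (AA p)) := by
    have := isDomain_QQ (Fact.out : p.Prime).pos
    exact IsLocalization.injective (AA p) (mQ p).primeCompl_le_nonZeroDivisors
  refine charZero_of_inj_zero fun n hn => ?_
  have h1 : ((n : ℕ) : QQ p) = 0 := hinj (by rw [map_natCast, hn, map_zero])
  have h2 := congrArg (evQ p (p : ℤ) 1 1 (by simp)) h1
  rw [map_natCast, map_zero] at h2
  exact_mod_cast h2

end

end Vale.Agent.P178.H815
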