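import Mathlib

/-!
# The ring of the counterexample

`A` is the localization of `ℤ[x, c, j] / (x c - Φ_p(j))` at the maximal ideal `(p, x, c, j - 1)`,
a regular local ring of dimension three and of mixed characteristic `(0, p)`.
-/

open MvPolynomial

namespace Vale.Agent.P178.H815

/-- `ℤ[c, x, j]` -/
abbrev BB : Type := MvPolynomial (Fin 3) ℤ

/-- `c` -/
noncomputable def cB : BB := X 0
/-- `x` -/
noncomputable def xB : BB := X 1
/-- `j` -/
noncomputable def jB : BB := X 2

/-- the equation `x c - Φ_p(j)` -/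
noncomputable def ff (p : ℕ) : BB := xB * cB - ∑ i ∈ Finset.range p, jB ^ i

section ev

variable {S T : Type*} [CommRing S] [CommRing T]

/-- evaluation at `x = a`, `c = b`, `j = d` -/
noncomputable def ev (a b d : S) : BB →+* S :=
  eval₂Hom (Int.castRingHom S) ![b, a, d]

@[simp] theorem ev_x (a b d : S) : ev a b d xB = a := by simp [ev, xB]
@[simp] theorem ev_c (a b d : S) : ev a b d cB = b := by simp [ev, cB]
@[simp] theorem ev_j (a b d : S) : ev a b d jB = d := by simp [ev, jB]

theorem hom_ext {g h : BB →+* S} (hx : g xB = h xB) (hc : g cB = h cB) (hj : g jB = h jB) :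
    g = h := by
  refine MvPolynomial.ringHom_ext' (RingHom.ext_int _ _) fun i => ?_
  fin_cases i
  · exact hc
  · exact hx
  · exact hj

theorem comp_ev (φ : S →+* T) (a b d : S) : φ.comp (ev a b d) = ev (φ a) (φ b) (φ d) :=
  hom_ext (by simp) (by simp) (by simp)

theorem apply_ev (φ : S →+* T) (a b d : S) (g : BB) :
    φ (ev a b d g) = ev (φ a) (φ b) (φ d) g := by
  rw [← comp_ev]; rfl

theorem ev_ff (p : ℕ) (a b d : S) : ev a b d (ff p) = a * b - ∑ i ∈ Finset.range p, d ^ i := by
  simp only [ff, map_sub, map_mul, map_sum, map_pow, ev_x, ev_c, ev_j]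

end ev

theorem ff_prime {p : ℕ} (hp : 0 < p) : Prime (ff p) := by
  rw [← MulEquiv.prime_iff (finSuccEquiv ℤ 2).toRingEquiv]
  have h : (finSuccEquiv ℤ 2).toRingEquiv (ff p) =
      Polynomial.C (X 0) * Polynomial.X + Polynomial.C (-∑ i ∈ Finset.range p, (X 1) ^ i) := by
    change (finSuccEquiv ℤ 2) (ff p) = _
    have h0 : (finSuccEquiv ℤ 2) cB = Polynomial.X := finSuccEquiv_X_zero
    have h1 : (finSuccEquiv ℤ 2) xB = Polynomial.C (X 0) := finSuccEquiv_X_succ (j := 0)
    have h2 : (finSuccEquiv ℤ 2) jB = Polynomial.C (X 1) := finSuccEquiv_X_succ (j := 1)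
    rw [ff, map_sub, map_mul, map_sum, h0, h1, sub_eq_add_neg, map_neg, map_sum]
    simp only [map_pow, h2]
  rw [h]
  refine (Polynomial.irreducible_C_mul_X_add_C (X_ne_zero _) ?_).prime
  refine ((MvPolynomial.X_prime (R := ℤ) (i := (0 : Fin 2))).irreducible.isRelPrime_iff_not_dvd).2 ?_
  rw [dvd_neg]
  rintro ⟨g, hg⟩
  have := congrArg (MvPolynomial.eval ![(0 : ℤ), 1]) hg
  simp at this
  omega

/-- `ℤ[x, c, j] / (x c - Φ_p(j))` -/
abbrev QQ (p : ℕ) : Type := BB ⧸ Ideal.span {ff p}

theorem isDomain_QQ {p : ℕ} (hp : 0 < p) : IsDomain (QQ p) := by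
  have : (Ideal.span {ff p}).IsPrime :=
    (Ideal.span_singleton_prime (ff_prime hp).ne_zero).2 (ff_prime hp)
  exact Ideal.Quotient.isDomain _

/-- the kernel of the evaluation `x = 0`, `c = 0`, `j = 1` in `ZMod p` -/
noncomputable def mB (p : ℕ) : Ideal BB := RingHom.ker (ev (0 : ZMod p) 0 1)

theorem ff_mem (p : ℕ) : ff p ∈ mB p := by
  rw [mB, RingHom.mem_ker, ev_ff]
  simp

instance isPrime_mB (p : ℕ) [Fact p.Prime] : (mB p).IsPrime := RingHom.ker_isPrime _

theorem lt_of_mem {I J : Ideal BB} (h : I ≤ J) {g : BB} (h1 : g ∈ J) (h2 : g ∉ I) : I < J :=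
  lt_of_le_of_ne h (fun e => h2 (e ▸ h1))

theorem four_le_height (p : ℕ) [Fact p.Prime] : (4 : ℕ∞) ≤ (mB p).height := by
  let K1 : Ideal BB := RingHom.ker (ev (0 : MvPolynomial (Fin 2) ℤ) (X 0) (X 1))
  let K2 : Ideal BB := RingHom.ker (ev (0 : MvPolynomial (Fin 2) ℤ) 0 (X 1))
  let K3 : Ideal BB := RingHom.ker (ev (0 : ℤ) 0 1)
  have hK1 : K1.IsPrime := RingHom.ker_isPrime _
  have hK2 : K2.IsPrime := RingHom.ker_isPrime _
  have hK3 : K3.IsPrime := RingHom.ker_isPrime _
  have hK4 : (mB p).IsPrime := inferInstance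
  have h0 : (⊥ : Ideal BB) < K1 := by
    refine lt_of_mem bot_le (g := xB) ?_ ?_
    · simp [K1, RingHom.mem_ker]
    · simp [xB]
  have h1 : K1 < K2 := by
    refine lt_of_mem (fun g hg => ?_) (g := cB) ?_ ?_
    · rw [RingHom.mem_ker] at hg ⊢
      have := apply_ev (MvPolynomial.eval₂Hom (C : ℤ →+* MvPolynomial (Fin 2) ℤ) ![0, X 1])
        (0 : MvPolynomial (Fin 2) ℤ) (X 0) (X 1) g
      rw [hg] at this
      simpa using! this.symm
    · simp [K2, RingHom.mem_ker]
    · simp [K1, RingHom.mem_ker]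
  have h2 : K2 < K3 := by
    refine lt_of_mem (fun g hg => ?_) (g := jB - 1) ?_ ?_
    · rw [RingHom.mem_ker] at hg ⊢
      have := apply_ev (MvPolynomial.eval ![(0 : ℤ), 1]) (0 : MvPolynomial (Fin 2) ℤ) 0 (X 1) g
      rw [hg] at this
      simpa using! this.symm
    · simp [K3, RingHom.mem_ker]
    · rw [RingHom.mem_ker, map_sub, ev_j, map_one]
      intro h
      have := congrArg (MvPolynomial.eval ![(0 : ℤ), 0]) h
      simp at this
  have h3 : K3 < mB p := by
    refine lt_of_mem (fun g hg => ?_) (g := (p : BB)) ?_ ?_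
    · rw [mB, RingHom.mem_ker]
      rw [RingHom.mem_ker] at hg
      have := apply_ev (Int.castRingHom (ZMod p)) (0 : ℤ) 0 1 g
      rw [hg] at this
      simpa using! this.symm
    · simp [mB, RingHom.mem_ker]
    · rw [RingHom.mem_ker, map_natCast]
      exact_mod_cast (Fact.out : p.Prime).ne_zero
  have e0 := Ideal.height_add_one_le_of_lt_of_isPrime h0
  have e1 := Ideal.height_add_one_le_of_lt_of_isPrime h1
  have e2 := Ideal.height_add_one_le_of_lt_of_isPrime h2
  have e3 := Ideal.height_add_one_le_of_lt_of_isPrime h3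
  have f1 : (1 : ℕ∞) ≤ K1.height := le_trans (by simp) e0
  have f2 : (2 : ℕ∞) ≤ K2.height := le_trans (by
    calc (2 : ℕ∞) = 1 + 1 := by norm_num
      _ ≤ K1.height + 1 := by gcongr) e1
  have f3 : (3 : ℕ∞) ≤ K3.height := le_trans (by
    calc (3 : ℕ∞) = 2 + 1 := by norm_num
      _ ≤ K2.height + 1 := by gcongr) e2
  exact le_trans (by
    calc (4 : ℕ∞) = 3 + 1 := by norm_num
      _ ≤ K3.height + 1 := by gcongr) e3


/-! ## The local ring -/

section Loc

variable (p : ℕ)

/-- evaluation of `QQ p` -/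
noncomputable def evQ {S : Type*} [CommRing S] (a b d : S)
    (h : a * b = ∑ i ∈ Finset.range p, d ^ i) : QQ p →+* S :=
  Ideal.Quotient.lift _ (ev a b d) (fun g hg => by
    obtain ⟨r, rfl⟩ := Ideal.mem_span_singleton'.1 hg
    rw [map_mul, ev_ff, h, sub_self, mul_zero])

theorem evQ_mk {S : Type*} [CommRing S] (a b d : S)
    (h : a * b = ∑ i ∈ Finset.range p, d ^ i) (g : BB) :
    evQ p a b d h (Ideal.Quotient.mk _ g) = ev a b d g := rfl

/-- the evaluation `x = 0`, `c = 0`, `j = 1` in `ZMod p` -/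
noncomputable def resQ : QQ p →+* ZMod p := evQ p 0 0 1 (by simp)

/-- its kernel -/
noncomputable def mQ : Ideal (QQ p) := RingHom.ker (resQ p)

instance isPrime_mQ [Fact p.Prime] : (mQ p).IsPrime := RingHom.ker_isPrime _

theorem map_mB : (mB p).map (Ideal.Quotient.mk (Ideal.span {ff p})) = mQ p := by
  refine le_antisymm (Ideal.map_le_iff_le_comap.2 fun g hg => ?_) fun q hq => ?_
  · rw [Ideal.mem_comap, mQ, RingHom.mem_ker]
    exact hg
  · obtain ⟨g, rfl⟩ := Ideal.Quotient.mk_surjective q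
    exact Ideal.mem_map_of_mem _ hq

theorem three_le_height [Fact p.Prime] : (3 : ℕ∞) ≤ (mQ p).height := by
  have h := Ideal.height_le_height_add_one_of_mem (ff_mem p)
  rw [map_mB] at h
  have h4 := (four_le_height p).trans h
  have : (3 : ℕ∞) + 1 ≤ (mQ p).height + 1 := by
    convert! h4 using 1
  exact (ENat.add_le_add_iff_right (by simp)).1 this

/-- the local ring -/
def AA [Fact p.Prime] : Type := Localization.AtPrime (mQ p)

variable [Fact p.Prime]

noncomputable instance instCommRingAA : CommRing (AA p) :=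
  inferInstanceAs (CommRing (Localization.AtPrime (mQ p)))

noncomputable instance instAlgebraAA : Algebra (QQ p) (AA p) :=
  inferInstanceAs (Algebra (QQ p) (Localization.AtPrime (mQ p)))

instance instIsLocalizationAA : IsLocalization.AtPrime (AA p) (mQ p) :=
  inferInstanceAs (IsLocalization.AtPrime (Localization.AtPrime (mQ p)) (mQ p))

instance instIsLocalRingAA : IsLocalRing (AA p) :=
  IsLocalization.AtPrime.isLocalRing (AA p) (mQ p)

instance instIsNoetherianRingAA : IsNoetherianRing (AA p) :=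
  IsLocalization.isNoetherianRing (mQ p).primeCompl (AA p) inferInstance

/-- the map to the local ring -/
noncomputable def toA : BB →+* AA p :=
  (algebraMap (QQ p) (AA p)).comp (Ideal.Quotient.mk (Ideal.span {ff p}))

/-- `x` -/
noncomputable def xA : AA p := toA p xB
/-- `c` -/
noncomputable def cA : AA p := toA p cB
/-- `j` -/
noncomputable def jA : AA p := toA p jB

theorem xc : xA p * cA p = ∑ i ∈ Finset.range p, jA p ^ i := by
  have h : toA p (ff p) = 0 := by
    rw [toA, RingHom.comp_apply, Ideal.Quotient.eq_zero_iff_mem.2 (Ideal.mem_span_singleton_self _),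
      map_zero]
  simp only [ff, map_sub, map_mul, map_sum, sub_eq_zero, map_pow] at h
  exact h

/-- evaluation of the local ring in a ring where it makes sense -/
noncomputable def evA {S : Type*} [CommRing S] (a b d : S)
    (h : a * b = ∑ i ∈ Finset.range p, d ^ i)
    (hu : ∀ g : BB, ev (0 : ZMod p) 0 1 g ≠ 0 → IsUnit (ev a b d g)) : AA p →+* S :=
  IsLocalization.lift (M := (mQ p).primeCompl) (g := evQ p a b d h) (fun y => by
    obtain ⟨g, hg⟩ := Ideal.Quotient.mk_surjective y.1
    have hy := y.2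
    rw [← hg] at hy ⊢
    exact hu g hy)

theorem evA_toA {S : Type*} [CommRing S] (a b d : S)
    (h : a * b = ∑ i ∈ Finset.range p, d ^ i)
    (hu : ∀ g : BB, ev (0 : ZMod p) 0 1 g ≠ 0 → IsUnit (ev a b d g)) (g : BB) :
    evA p a b d h hu (toA p g) = ev a b d g := by
  rw [evA, toA, RingHom.comp_apply, IsLocalization.lift_eq]
  rfl

instance isDomain_AA : IsDomain (AA p) := by
  have := isDomain_QQ (Fact.out : p.Prime).pos
  exact IsLocalization.isDomain_of_atPrime (AA p) (mQ p)

theorem mem_span_three {g : BB} (hg : g ∈ mB p) :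
    toA p g ∈ Ideal.span {xA p, cA p, jA p - 1} := by
  set I := Ideal.span {xA p, cA p, jA p - 1} with hI
  have hx : Ideal.Quotient.mk I (xA p) = 0 :=
    Ideal.Quotient.eq_zero_iff_mem.2 (Ideal.subset_span (by simp))
  have hc : Ideal.Quotient.mk I (cA p) = 0 :=
    Ideal.Quotient.eq_zero_iff_mem.2 (Ideal.subset_span (by simp))
  have hj : Ideal.Quotient.mk I (jA p) = 1 := by
    have h : Ideal.Quotient.mk I (jA p - 1) = 0 :=
      Ideal.Quotient.eq_zero_iff_mem.2 (Ideal.subset_span (by simp))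
    rwa [map_sub, map_one, sub_eq_zero] at h
  have hp0 : ((p : ℕ) : AA p ⧸ I) = 0 := by
    have h := congrArg (Ideal.Quotient.mk I) (xc p)
    rw [map_mul, hx, zero_mul, map_sum] at h
    simp only [map_pow, hj, one_pow, Finset.sum_const, Finset.card_range, nsmul_eq_mul,
      mul_one] at h
    exact h.symm
  have hch : (ev (0 : ℤ) 0 1 g : ℤ) ∈ Ideal.span {(p : ℤ)} := by
    have h1 := apply_ev (Int.castRingHom (ZMod p)) (0 : ℤ) 0 1 g
    have h2 : ev (0 : ZMod p) 0 1 g = 0 := hg
    simp only [map_zero, map_one] at h1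
    rw [h2] at h1
    rw [Ideal.mem_span_singleton]
    exact (ZMod.intCast_zmod_eq_zero_iff_dvd _ p).1 h1
  have key : (Ideal.Quotient.mk I).comp (toA p) = (Int.castRingHom (AA p ⧸ I)).comp
      (ev (0 : ℤ) 0 1) := by
    refine hom_ext ?_ ?_ ?_
    · rw [RingHom.comp_apply, RingHom.comp_apply, ev_x, map_zero]; exact hx
    · rw [RingHom.comp_apply, RingHom.comp_apply, ev_c, map_zero]; exact hc
    · rw [RingHom.comp_apply, RingHom.comp_apply, ev_j, map_one]; exact hj
  have h3 := RingHom.congr_fun key g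
  rw [RingHom.comp_apply, RingHom.comp_apply] at h3
  rw [← Ideal.Quotient.eq_zero_iff_mem, h3]
  obtain ⟨r, hr⟩ := Ideal.mem_span_singleton'.1 hch
  rw [← hr, map_mul, map_natCast, hp0, mul_zero]

theorem maximalIdeal_eq : IsLocalRing.maximalIdeal (AA p) =
    Ideal.span {xA p, cA p, jA p - 1} := by
  have h1 : IsLocalRing.maximalIdeal (AA p) = (mB p).map (toA p) := by
    rw [toA, ← Ideal.map_map, map_mB]
    exact (IsLocalization.AtPrime.map_eq_maximalIdeal (mQ p) (AA p)).symm
  rw [h1]
  refine le_antisymm (Ideal.map_le_iff_le_comap.2 fun g hg => mem_span_three p hg) ?_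
  rw [Ideal.span_le]
  intro z hz
  simp only [Set.mem_insert_iff, Set.mem_singleton_iff] at hz
  rcases hz with rfl | rfl | rfl
  · exact Ideal.mem_map_of_mem _ (by simp [mB, RingHom.mem_ker])
  · exact Ideal.mem_map_of_mem _ (by simp [mB, RingHom.mem_ker])
  · have : jA p - 1 = toA p (jB - 1) := by rw [map_sub, map_one]; rfl
    rw [this]
    exact Ideal.mem_map_of_mem _ (by simp [mB, RingHom.mem_ker])

theorem three_le_dim : (3 : WithBot ℕ∞) ≤ ringKrullDim (AA p) := by
  rw [IsLocalization.AtPrime.ringKrullDim_eq_height (mQ p) (AA p)]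
  exact WithBot.coe_le_coe.2 (three_le_height p)

theorem spanFinrank_le : (IsLocalRing.maximalIdeal (AA p)).spanFinrank ≤ 3 := by
  rw [maximalIdeal_eq]
  refine (Submodule.spanFinrank_span_le_ncard_of_finite (Set.toFinite _)).trans ?_
  refine (Set.ncard_insert_le _ _).trans ?_
  have := Set.ncard_insert_le (cA p) {jA p - 1}
  rw [Set.ncard_singleton] at this
  omega

instance isRegularLocalRing_AA : IsRegularLocalRing (AA p) := by
  refine IsRegularLocalRing.of_spanFinrank_maximalIdeal_le _ (le_trans ?_ (three_le_dim p))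
  exact_mod_cast spanFinrank_le p

theorem ringKrullDim_AA : ringKrullDim (AA p) = 3 := by
  refine le_antisymm ?_ (three_le_dim p)
  refine (ringKrullDim_le_spanFinrank_maximalIdeal (AA p)).trans ?_
  exact_mod_cast spanFinrank_le p

end Loc

end Vale.Agent.P178.H815
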