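import Mathlib

/-!
# The ring of the counterexample

`A` is the localization of `ℤ[x, v, w] / (x^2 + x - 1 - v w)` at the maximal ideal
`(5, x - 2, v, w)`, a regular local ring of dimension three and of mixed characteristic `(0, 5)`.
-/

open MvPolynomial TrivSqZeroExt

namespace Vale.Agent.P178.H815.R5

/-- `ℤ[v, w, x]` -/
abbrev BB : Type := MvPolynomial (Fin 3) ℤ

/-- `v` -/
noncomputable def vB : BB := X 0
/-- `w` -/
noncomputable def wB : BB := X 1
/-- `x` -/
noncomputable def xB : BB := X 2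

/-- the equation `x^2 + x - 1 - v w` -/
noncomputable def ff : BB := xB ^ 2 + xB - 1 - vB * wB

section ev

variable {S T : Type*} [CommRing S] [CommRing T]

/-- evaluation at `v = a`, `w = b`, `x = d` -/
noncomputable def ev (a b d : S) : BB →+* S :=
  eval₂Hom (Int.castRingHom S) ![a, b, d]

@[simp] theorem ev_v (a b d : S) : ev a b d vB = a := by simp [ev, vB]
@[simp] theorem ev_w (a b d : S) : ev a b d wB = b := by simp [ev, wB]
@[simp] theorem ev_x (a b d : S) : ev a b d xB = d := by simp [ev, xB]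

theorem hom_ext {g h : BB →+* S} (hv : g vB = h vB) (hw : g wB = h wB) (hx : g xB = h xB) :
    g = h := by
  refine MvPolynomial.ringHom_ext' (RingHom.ext_int _ _) fun i => ?_
  fin_cases i
  · exact hv
  · exact hw
  · exact hx

theorem comp_ev (φ : S →+* T) (a b d : S) : φ.comp (ev a b d) = ev (φ a) (φ b) (φ d) :=
  hom_ext (by simp) (by simp) (by simp)

theorem apply_ev (φ : S →+* T) (a b d : S) (g : BB) :
    φ (ev a b d g) = ev (φ a) (φ b) (φ d) g := by
  rw [← comp_ev]; rfl

theorem ev_ff (a b d : S) : ev a b d ff = d ^ 2 + d - 1 - a * b := by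
  simp only [ff, map_sub, map_add, map_mul, map_one, map_pow, ev_x, ev_v, ev_w]

end ev

theorem ff_prime : Prime ff := by
  rw [← MulEquiv.prime_iff (finSuccEquiv ℤ 2).toRingEquiv]
  have h : (finSuccEquiv ℤ 2).toRingEquiv ff =
      Polynomial.C (-X 0) * Polynomial.X + Polynomial.C ((X 1) ^ 2 + X 1 - 1) := by
    change (finSuccEquiv ℤ 2) ff = _
    have h0 : (finSuccEquiv ℤ 2) vB = Polynomial.X := finSuccEquiv_X_zero
    have h1 : (finSuccEquiv ℤ 2) wB = Polynomial.C (X 0) := finSuccEquiv_X_succ (j := 0)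
    have h2 : (finSuccEquiv ℤ 2) xB = Polynomial.C (X 1) := finSuccEquiv_X_succ (j := 1)
    simp only [ff, map_sub, map_add, map_mul, map_one, map_pow, map_neg, h0, h1, h2]
    ring
  rw [h]
  refine (Polynomial.irreducible_C_mul_X_add_C (neg_ne_zero.2 (X_ne_zero _)) ?_).prime
  have hi : Irreducible (-X 0 : MvPolynomial (Fin 2) ℤ) :=
    (MvPolynomial.X_prime (R := ℤ) (i := (0 : Fin 2))).neg.irreducible
  refine (hi.isRelPrime_iff_not_dvd).2 ?_
  rintro ⟨g, hg⟩
  have := congrArg (MvPolynomial.eval ![(0 : ℤ), 0]) hg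
  simp at this

/-- `ℤ[x, v, w] / (x^2 + x - 1 - v w)` -/
abbrev QQ : Type := BB ⧸ Ideal.span {ff}

theorem isDomain_QQ : IsDomain QQ := by
  have : (Ideal.span {ff}).IsPrime :=
    (Ideal.span_singleton_prime ff_prime.ne_zero).2 ff_prime
  exact Ideal.Quotient.isDomain _

instance fact5 : Fact (Nat.Prime 5) := ⟨by norm_num⟩

/-- the kernel of the evaluation `v = 0`, `w = 0`, `x = 2` in `ZMod 5` -/
noncomputable def mB : Ideal BB := RingHom.ker (ev (0 : ZMod 5) 0 2)

theorem five_eq_zero : (5 : ZMod 5) = 0 := by decide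

theorem ff_mem : ff ∈ mB := by
  rw [mB, RingHom.mem_ker, ev_ff]
  decide

instance isPrime_mB : mB.IsPrime := RingHom.ker_isPrime _

theorem lt_of_mem {I J : Ideal BB} (h : I ≤ J) {g : BB} (h1 : g ∈ J) (h2 : g ∉ I) : I < J :=
  lt_of_le_of_ne h (fun e => h2 (e ▸ h1))

theorem four_le_height : (4 : ℕ∞) ≤ mB.height := by
  let K1 : Ideal BB := RingHom.ker (ev (0 : MvPolynomial (Fin 2) ℤ) (X 0) (X 1))
  let K2 : Ideal BB := RingHom.ker (ev (0 : MvPolynomial (Fin 2) ℤ) 0 (X 1))
  let K3 : Ideal BB := RingHom.ker (ev (0 : ℤ) 0 2)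
  have hK1 : K1.IsPrime := RingHom.ker_isPrime _
  have hK2 : K2.IsPrime := RingHom.ker_isPrime _
  have hK3 : K3.IsPrime := RingHom.ker_isPrime _
  have hK4 : mB.IsPrime := inferInstance
  have h0 : (⊥ : Ideal BB) < K1 := by
    refine lt_of_mem bot_le (g := vB) ?_ ?_
    · simp [K1, RingHom.mem_ker]
    · simp [vB]
  have h1 : K1 < K2 := by
    refine lt_of_mem (fun g hg => ?_) (g := wB) ?_ ?_
    · rw [RingHom.mem_ker] at hg ⊢
      have := apply_ev (MvPolynomial.eval₂Hom (C : ℤ →+* MvPolynomial (Fin 2) ℤ) ![0, X 1])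
        (0 : MvPolynomial (Fin 2) ℤ) (X 0) (X 1) g
      rw [hg] at this
      simpa using! this.symm
    · simp [K2, RingHom.mem_ker]
    · simp [K1, RingHom.mem_ker]
  have h2 : K2 < K3 := by
    refine lt_of_mem (fun g hg => ?_) (g := xB - 2) ?_ ?_
    · rw [RingHom.mem_ker] at hg ⊢
      have := apply_ev (MvPolynomial.eval ![(0 : ℤ), 2]) (0 : MvPolynomial (Fin 2) ℤ) 0 (X 1) g
      rw [hg] at this
      simpa using! this.symm
    · rw [RingHom.mem_ker, map_sub, ev_x, map_ofNat, sub_self]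
    · rw [RingHom.mem_ker, map_sub, ev_x, map_ofNat]
      intro h
      have := congrArg (MvPolynomial.eval ![(0 : ℤ), 0]) h
      simp at this
  have h3 : K3 < mB := by
    refine lt_of_mem (fun g hg => ?_) (g := (5 : BB)) ?_ ?_
    · rw [mB, RingHom.mem_ker]
      rw [RingHom.mem_ker] at hg
      have := apply_ev (Int.castRingHom (ZMod 5)) (0 : ℤ) 0 2 g
      rw [hg] at this
      simpa using! this.symm
    · rw [mB, RingHom.mem_ker, map_ofNat]
      exact five_eq_zero
    · rw [RingHom.mem_ker, map_ofNat]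
      norm_num
  have e0 := Ideal.height_add_one_le_of_lt_of_isPrime h0
  have e1 := Ideal.height_add_one_le_of_lt_of_isPrime h1
  have e2 := Ideal.height_add_one_le_of_lt_of_isPrime h2
  have e3 := Ideal.height_add_one_le_of_lt_of_isPrime h3
  have f1 : (1 : ℕ∞) ≤ K1.height := le_trans (by simp) e0
  have f2 : (2 : ℕ∞) ≤ K2.height := le_trans (by
    calc (2 : ℕ∞) = 1 + 1 := by norm_num
      _ ≤ K1.height + 1 := by gcongr) e1
  have f3 : (3 : ℕ∞) ≤ K3.height := le_trans (by
    calc (3 : ℕ∞) = 2 + 1 := by norm_num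
      _ ≤ K2.height + 1 := by gcongr) e2
  exact le_trans (by
    calc (4 : ℕ∞) = 3 + 1 := by norm_num
      _ ≤ K3.height + 1 := by gcongr) e3

/-! ## The local ring -/

/-- evaluation of `QQ` -/
noncomputable def evQ {S : Type*} [CommRing S] (a b d : S)
    (h : d ^ 2 + d - 1 = a * b) : QQ →+* S :=
  Ideal.Quotient.lift _ (ev a b d) (fun g hg => by
    obtain ⟨r, rfl⟩ := Ideal.mem_span_singleton'.1 hg
    rw [map_mul, ev_ff, h, sub_self, mul_zero])

theorem evQ_mk {S : Type*} [CommRing S] (a b d : S)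
    (h : d ^ 2 + d - 1 = a * b) (g : BB) :
    evQ a b d h (Ideal.Quotient.mk _ g) = ev a b d g := rfl

/-- the evaluation `v = 0`, `w = 0`, `x = 2` in `ZMod 5` -/
noncomputable def resQ : QQ →+* ZMod 5 := evQ 0 0 2 (by decide)

/-- its kernel -/
noncomputable def mQ : Ideal QQ := RingHom.ker resQ

instance isPrime_mQ : mQ.IsPrime := RingHom.ker_isPrime _

theorem map_mB : mB.map (Ideal.Quotient.mk (Ideal.span {ff})) = mQ := by
  refine le_antisymm (Ideal.map_le_iff_le_comap.2 fun g hg => ?_) fun q hq => ?_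
  · rw [Ideal.mem_comap, mQ, RingHom.mem_ker]
    exact hg
  · obtain ⟨g, rfl⟩ := Ideal.Quotient.mk_surjective q
    exact Ideal.mem_map_of_mem _ hq

theorem three_le_height : (3 : ℕ∞) ≤ mQ.height := by
  have h := Ideal.height_le_height_add_one_of_mem ff_mem
  rw [map_mB] at h
  have h4 := four_le_height.trans h
  have : (3 : ℕ∞) + 1 ≤ mQ.height + 1 := by
    convert! h4 using 1
  exact (ENat.add_le_add_iff_right (by simp)).1 this

/-- the local ring -/
def AA : Type := Localization.AtPrime mQ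

noncomputable instance instCommRingAA : CommRing AA :=
  inferInstanceAs (CommRing (Localization.AtPrime mQ))

noncomputable instance instAlgebraAA : Algebra QQ AA :=
  inferInstanceAs (Algebra QQ (Localization.AtPrime mQ))

instance instIsLocalizationAA : IsLocalization.AtPrime AA mQ :=
  inferInstanceAs (IsLocalization.AtPrime (Localization.AtPrime mQ) mQ)

instance instIsLocalRingAA : IsLocalRing AA :=
  IsLocalization.AtPrime.isLocalRing AA mQ

instance instIsNoetherianRingAA : IsNoetherianRing AA :=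
  IsLocalization.isNoetherianRing mQ.primeCompl AA inferInstance

/-- the map to the local ring -/
noncomputable def toA : BB →+* AA :=
  (algebraMap QQ AA).comp (Ideal.Quotient.mk (Ideal.span {ff}))

/-- `x` -/
noncomputable def xA : AA := toA xB
/-- `v` -/
noncomputable def vA : AA := toA vB
/-- `w` -/
noncomputable def wA : AA := toA wB

theorem vw : xA ^ 2 + xA - 1 = vA * wA := by
  have h : toA ff = 0 := by
    rw [toA, RingHom.comp_apply, Ideal.Quotient.eq_zero_iff_mem.2 (Ideal.mem_span_singleton_self _),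
      map_zero]
  simp only [ff, map_sub, map_add, map_one, map_mul, map_pow, sub_eq_zero] at h
  exact h

/-- evaluation of the local ring in a ring where it makes sense -/
noncomputable def evA {S : Type*} [CommRing S] (a b d : S)
    (h : d ^ 2 + d - 1 = a * b)
    (hu : ∀ g : BB, ev (0 : ZMod 5) 0 2 g ≠ 0 → IsUnit (ev a b d g)) : AA →+* S :=
  IsLocalization.lift (M := mQ.primeCompl) (g := evQ a b d h) (fun y => by
    obtain ⟨g, hg⟩ := Ideal.Quotient.mk_surjective y.1
    have hy := y.2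
    rw [← hg] at hy ⊢
    exact hu g hy)

theorem evA_toA {S : Type*} [CommRing S] (a b d : S)
    (h : d ^ 2 + d - 1 = a * b)
    (hu : ∀ g : BB, ev (0 : ZMod 5) 0 2 g ≠ 0 → IsUnit (ev a b d g)) (g : BB) :
    evA a b d h hu (toA g) = ev a b d g := by
  rw [evA, toA, RingHom.comp_apply, IsLocalization.lift_eq]
  rfl

instance isDomain_AA : IsDomain AA := by
  have := isDomain_QQ
  exact IsLocalization.isDomain_of_atPrime AA mQ

theorem mem_span_three {g : BB} (hg : g ∈ mB) :
    toA g ∈ Ideal.span {vA, wA, xA - 2} := by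
  set I := Ideal.span {vA, wA, xA - 2} with hI
  have hv : Ideal.Quotient.mk I vA = 0 :=
    Ideal.Quotient.eq_zero_iff_mem.2 (Ideal.subset_span (by simp))
  have hw : Ideal.Quotient.mk I wA = 0 :=
    Ideal.Quotient.eq_zero_iff_mem.2 (Ideal.subset_span (by simp))
  have hx : Ideal.Quotient.mk I xA = 2 := by
    have h : Ideal.Quotient.mk I (xA - 2) = 0 :=
      Ideal.Quotient.eq_zero_iff_mem.2 (Ideal.subset_span (by simp))
    rwa [map_sub, map_ofNat, sub_eq_zero] at h
  have hp0 : (5 : AA ⧸ I) = 0 := by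
    have h := congrArg (Ideal.Quotient.mk I) vw
    rw [map_mul, hv, zero_mul, map_sub, map_add, map_pow, map_one, hx] at h
    linear_combination h
  have hch : (ev (0 : ℤ) 0 2 g : ℤ) ∈ Ideal.span {((5 : ℕ) : ℤ)} := by
    have h1 := apply_ev (Int.castRingHom (ZMod 5)) (0 : ℤ) 0 2 g
    have h2 : ev (0 : ZMod 5) 0 2 g = 0 := hg
    simp only [map_zero, map_ofNat] at h1
    rw [h2] at h1
    rw [Ideal.mem_span_singleton]
    exact (ZMod.intCast_zmod_eq_zero_iff_dvd _ 5).1 h1
  have key : (Ideal.Quotient.mk I).comp toA = (Int.castRingHom (AA ⧸ I)).comp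
      (ev (0 : ℤ) 0 2) := by
    refine hom_ext ?_ ?_ ?_
    · rw [RingHom.comp_apply, RingHom.comp_apply, ev_v, map_zero]; exact hv
    · rw [RingHom.comp_apply, RingHom.comp_apply, ev_w, map_zero]; exact hw
    · rw [RingHom.comp_apply, RingHom.comp_apply, ev_x, map_ofNat]; exact hx
  have h3 := RingHom.congr_fun key g
  rw [RingHom.comp_apply, RingHom.comp_apply] at h3
  rw [← Ideal.Quotient.eq_zero_iff_mem, h3]
  obtain ⟨r, hr⟩ := Ideal.mem_span_singleton'.1 hch
  rw [← hr, map_mul, map_natCast, Nat.cast_ofNat, hp0, mul_zero]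

theorem maximalIdeal_eq : IsLocalRing.maximalIdeal AA =
    Ideal.span {vA, wA, xA - 2} := by
  have h1 : IsLocalRing.maximalIdeal AA = mB.map toA := by
    rw [toA, ← Ideal.map_map, map_mB]
    exact (IsLocalization.AtPrime.map_eq_maximalIdeal mQ AA).symm
  rw [h1]
  refine le_antisymm (Ideal.map_le_iff_le_comap.2 fun g hg => mem_span_three hg) ?_
  rw [Ideal.span_le]
  intro z hz
  simp only [Set.mem_insert_iff, Set.mem_singleton_iff] at hz
  rcases hz with rfl | rfl | rfl
  · exact Ideal.mem_map_of_mem _ (by simp [mB, RingHom.mem_ker])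
  · exact Ideal.mem_map_of_mem _ (by simp [mB, RingHom.mem_ker])
  · have : xA - 2 = toA (xB - 2) := by rw [map_sub, map_ofNat]; rfl
    rw [this]
    exact Ideal.mem_map_of_mem _ (by rw [mB, RingHom.mem_ker, map_sub, ev_x, map_ofNat, sub_self])

theorem three_le_dim : (3 : WithBot ℕ∞) ≤ ringKrullDim AA := by
  rw [IsLocalization.AtPrime.ringKrullDim_eq_height mQ AA]
  exact WithBot.coe_le_coe.2 three_le_height

theorem spanFinrank_le : (IsLocalRing.maximalIdeal AA).spanFinrank ≤ 3 := by
  rw [maximalIdeal_eq]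
  refine (Submodule.spanFinrank_span_le_ncard_of_finite (Set.toFinite _)).trans ?_
  refine (Set.ncard_insert_le _ _).trans ?_
  have := Set.ncard_insert_le wA {xA - 2}
  rw [Set.ncard_singleton] at this
  omega

instance isRegularLocalRing_AA : IsRegularLocalRing AA := by
  refine IsRegularLocalRing.of_spanFinrank_maximalIdeal_le _ (le_trans ?_ three_le_dim)
  exact_mod_cast spanFinrank_le

theorem ringKrullDim_AA : ringKrullDim AA = 3 := by
  refine le_antisymm ?_ three_le_dim
  refine (ringKrullDim_le_spanFinrank_maximalIdeal AA).trans ?_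
  exact_mod_cast spanFinrank_le

theorem isUnit_toA {g : BB} (hg : ev (0 : ZMod 5) 0 2 g ≠ 0) : IsUnit (toA g) :=
  IsLocalization.map_units AA (⟨Ideal.Quotient.mk _ g, hg⟩ : mQ.primeCompl)

theorem toA_mem {g : BB} (hg : ev (0 : ZMod 5) 0 2 g = 0) :
    toA g ∈ IsLocalRing.maximalIdeal AA := by
  rw [maximalIdeal_eq]
  exact mem_span_three hg

/-! ## The square zero extension -/

/-- `𝔽_5 ⊕ 𝔽_5^3`, the second summand of square zero -/
abbrev TT : Type := TrivSqZeroExt (ZMod 5) (Fin 3 → ZMod 5)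

/-- the basis `ε_0, ε_1, ε_2` -/
def eps (i : Fin 3) : TT := inr (Pi.single i 1)

theorem eps_mul (i k : Fin 3) : eps i * eps k = 0 := inr_mul_inr _ _ _

theorem five_TT : (5 : TT) = 0 := by
  have h := map_ofNat (TrivSqZeroExt.inlHom (ZMod 5) (Fin 3 → ZMod 5)) 5
  rw [five_eq_zero, map_zero] at h
  exact h.symm

/-- the homomorphism `A → 𝔽_5 ⊕ 𝔽_5^3` with `x ↦ 2 + ε_0`, `v ↦ ε_1`, `w ↦ ε_2` -/
noncomputable def piA : AA →+* TT :=
  evA (eps 1) (eps 2) (2 + eps 0) (by
    rw [eps_mul]
    linear_combination eps_mul 0 0 + (1 + eps 0) * five_TT) (fun g hg => by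
    rw [isUnit_iff_isUnit_fst]
    have h := apply_ev (TrivSqZeroExt.fstHom (ZMod 5) (ZMod 5) (Fin 3 → ZMod 5)).toRingHom
      (eps 1) (eps 2) (2 + eps 0) g
    have h1 : (TrivSqZeroExt.fstHom (ZMod 5) (ZMod 5) (Fin 3 → ZMod 5)).toRingHom (eps 1) = 0 :=
      rfl
    have h2 : (TrivSqZeroExt.fstHom (ZMod 5) (ZMod 5) (Fin 3 → ZMod 5)).toRingHom (eps 2) = 0 :=
      rfl
    have h3 : (TrivSqZeroExt.fstHom (ZMod 5) (ZMod 5) (Fin 3 → ZMod 5)).toRingHom
        (2 + eps 0) = 2 := by
      rw [map_add, map_ofNat]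
      exact add_zero _
    rw [h1, h2, h3] at h
    change IsUnit ((TrivSqZeroExt.fstHom (ZMod 5) (ZMod 5) (Fin 3 → ZMod 5)).toRingHom
      (ev (eps 1) (eps 2) (2 + eps 0) g))
    rw [h]
    exact isUnit_iff_ne_zero.2 hg)

@[simp] theorem piA_x : piA xA = 2 + eps 0 := by rw [piA, xA, evA_toA, ev_x]
@[simp] theorem piA_v : piA vA = eps 1 := by rw [piA, vA, evA_toA, ev_v]
@[simp] theorem piA_w : piA wA = eps 2 := by rw [piA, wA, evA_toA, ev_w]

/-! ## The units -/

theorem isUnit_x : IsUnit xA := isUnit_toA (by rw [ev_x]; decide)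

theorem isUnit_one_sub_x : IsUnit (1 - xA) := by
  have h : 1 - xA = toA (1 - xB) := by rw [map_sub, map_one]; rfl
  rw [h]
  refine isUnit_toA ?_
  rw [map_sub, map_one, ev_x]; decide

theorem isUnit_y : IsUnit (xA ^ 2 - wA) := by
  have h : xA ^ 2 - wA = toA (xB ^ 2 - wB) := by rw [map_sub, map_pow]; rfl
  rw [h]
  refine isUnit_toA ?_
  rw [map_sub, map_pow, ev_x, ev_w]; decide

theorem isUnit_u : IsUnit (1 - vA) := by
  have h : 1 - vA = toA (1 - vB) := by rw [map_sub, map_one]; rfl
  rw [h]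
  refine isUnit_toA ?_
  rw [map_sub, map_one, ev_v]; decide

/-- `x` -/
noncomputable def xU : AAˣ := isUnit_x.unit
/-- `1 - x` -/
noncomputable def cxU : AAˣ := isUnit_one_sub_x.unit
/-- `y = x^2 - w` -/
noncomputable def yU : AAˣ := isUnit_y.unit
/-- `u = 1 - v` -/
noncomputable def uU : AAˣ := isUnit_u.unit

theorem xU_val : (xU : AA) = xA := rfl
theorem cxU_val : (cxU : AA) = 1 - xA := rfl
theorem yU_val : (yU : AA) = xA ^ 2 - wA := rfl
theorem uU_val : (uU : AA) = 1 - vA := rfl

/-- `x + (1 - x) = 1` -/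
theorem x_add_cx : (xU : AA) + cxU = 1 := by rw [xU_val, cxU_val]; ring

/-- `v + u = 1` -/
theorem v_add_u : vA + uU = 1 := by rw [uU_val]; ring

/-- `1 - x = v y + x^2 u` -/
theorem rel : (cxU : AA) = vA * yU + xU ^ 2 * uU := by
  rw [cxU_val, yU_val, uU_val, xU_val]
  linear_combination -vw

theorem piA_xU : piA xU = 2 + eps 0 := by rw [xU_val, piA_x]

theorem piA_yU : piA yU = 4 + 4 * eps 0 - eps 2 := by
  rw [yU_val, map_sub, map_pow, piA_x, piA_w]
  linear_combination eps_mul 0 0

theorem piA_uU : piA uU = 1 - eps 1 := by rw [uU_val, map_sub, map_one, piA_v]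

theorem vA_ne_zero : vA ≠ 0 := by
  intro h
  have := congrArg piA h
  rw [piA_v, map_zero] at this
  have := congrFun (congrArg TrivSqZeroExt.snd this) 1
  simp [eps] at this

theorem wA_ne_zero : wA ≠ 0 := by
  intro h
  have := congrArg piA h
  rw [piA_w, map_zero] at this
  have := congrFun (congrArg TrivSqZeroExt.snd this) 2
  simp [eps] at this

/-! ## Mixed characteristic, ramified -/

/-- the residue characteristic is `5`, and `A` is ramified: `5 ∈ 𝔪^2` -/
theorem five_mem_sq : (5 : AA) ∈ IsLocalRing.maximalIdeal AA ^ 2 := by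
  have hv : vA ∈ IsLocalRing.maximalIdeal AA := toA_mem (by simp)
  have hw : wA ∈ IsLocalRing.maximalIdeal AA := toA_mem (by simp)
  have hx : xA - 2 ∈ IsLocalRing.maximalIdeal AA := by
    have : xA - 2 = toA (xB - 2) := by rw [map_sub, map_ofNat]; rfl
    rw [this]; exact toA_mem (by rw [map_sub, ev_x, map_ofNat, sub_self])
  have h : (1 - xA) * 5 ∈ IsLocalRing.maximalIdeal AA ^ 2 := by
    have h1 : (1 - xA) * 5 = (xA - 2) * (xA - 2) - vA * wA := by linear_combination -vw
    rw [h1, pow_two]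
    exact Ideal.sub_mem _ (Ideal.mul_mem_mul hx hx) (Ideal.mul_mem_mul hv hw)
  exact (Ideal.unit_mul_mem_iff_mem _ isUnit_one_sub_x).1 h

instance charZero_AA : CharZero AA := by
  have hinj : Function.Injective (algebraMap QQ AA) := by
    have := isDomain_QQ
    exact IsLocalization.injective AA mQ.primeCompl_le_nonZeroDivisors
  refine charZero_of_inj_zero fun n hn => ?_
  have h1 : ((n : ℕ) : QQ) = 0 := hinj (by rw [map_natCast, hn, map_zero])
  have h2 := congrArg (evQ (1 : ℤ) (-1) 0 (by norm_num)) h1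
  rw [map_natCast, map_zero] at h2
  exact_mod_cast h2

theorem charP_residueField : CharP (IsLocalRing.ResidueField AA) 5 := by
  have h : ((5 : ℕ) : IsLocalRing.ResidueField AA) = 0 := by
    have h1 : IsLocalRing.residue AA 5 = 0 :=
      (IsLocalRing.residue_eq_zero_iff _).2 (Ideal.pow_le_self two_ne_zero five_mem_sq)
    rw [map_ofNat] at h1
    exact_mod_cast h1
  exact (CharP.charP_iff_prime_eq_zero (by norm_num)).2 h

end Vale.Agent.P178.H815.R5
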